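import Vale.Agent.P088.E.St

/-!
# P088: the data as a form, and the coefficients of a pair (definitions of the hand-in)
-/

open Manifold MeasureTheory Set
open scoped ContDiff Matrix

namespace Vale.Agent.P088.B

universe u

variable {n N : ℕ} {M : Type u}

/-- `g x` and `A x i` are, in the chart at `x`, the matrix `g_{ij}` of a Riemannian metric and the
skew-Hermitian coefficients `A_i` of a unitary connection `d + A` on `M × ℂ^N`, both smooth up to
the boundary. -/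
def IsSmooth (Z : At n M) (g : M → Matrix (Fin n) (Fin n) ℝ)
    (A : M → Fin n → Matrix (Fin N) (Fin N) ℂ) : Prop :=
  (∀ x, (g x).PosDef ∧ ∀ i, (A x i)ᴴ = -A x i) ∧
  ∀ p i j, Z.sm (Z.src p) (fun x => gch Z g p (Z.ch p x) i j) ∧
    ∀ a b, Z.sm (Z.src p) (fun x => ach Z A p i (Z.ch p x) a b)

/-- `Λ_{g₁,A₁,Γ} = Λ_{g₂,A₂,Γ}`: for all `f, h ∈ C_c^∞(Γ; ℂ^N)`,
`∫ ⟨d_{A₁} u_f, d_{A₁} u_h⟩ dV_{g₁} = ∫ ⟨d_{A₂} u_f, d_{A₂} u_h⟩ dV_{g₂}`, where `u_f, u_h` are
the solutions of the two Dirichlet problems (`u`, `v` for `(g₁, A₁)`, `u'`, `v'` for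
`(g₂, A₂)`). -/
def EqualData {Z : At n M} (Γ : Set M) (P Q : Pair Z N) : Prop :=
  ∀ f h, Data Z Γ f → Data Z Γ h → ∀ u v u' v',
    Harm P f u → Harm P h v → Harm Q f u' → Harm Q h v' → energy P u v = energy Q u' v'

end Vale.Agent.P088.B
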