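import Vale.Agent.P088.Bdl.B10
import Vale.Agent.P088.R2.H31.DM.St

/-!
# P088: the Riemannian volume exists

Every smooth metric and connection (in the coefficient form of the hand-in) has a volume, so it
is a `Pair`, and only one.
-/

set_option autoImplicit false
set_option linter.all false

open Bundle Manifold MeasureTheory Set Filter
open scoped ContDiff Matrix Topology ENNReal

noncomputable section

namespace Vale.Agent.P088.R2.H31.DM

open Vale.Agent.P088
open Vale.Agent.P088.S (src ch pt inChart jac SmOn src_eq measurable_image bil bil_symm bil_pos bil_cc)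

universe u

variable {n N : ℕ} [NeZero n] {M : Type u} [TopologicalSpace M]
  [ChartedSpace (EuclideanHalfSpace n) M] [IsManifold (𝓡∂ n) ∞ M]

/-! ### change of charts -/

theorem det_mat (T : EuclideanSpace ℝ (Fin n) →L[ℝ] EuclideanSpace ℝ (Fin n)) :
    T.det = (mat T).det := by
  rw [ContinuousLinearMap.det, ← LinearMap.det_toMatrix (EuclideanSpace.basisFun (Fin n) ℝ).toBasis]
  congr 1

theorem det_gram (g : Metric (𝓡∂ n) M) (p x : M) :
    (gram g p x).det = (mat (cc (𝓡∂ n) p x)).det ^ 2 * (gram g x x).det := by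
  rw [gram_eq g p x, Matrix.det_mul, Matrix.det_mul, Matrix.det_transpose]
  ring

theorem mat_cc {p q x : M} (hp : x ∈ (extChartAt (𝓡∂ n) p).source)
    (hq : x ∈ (extChartAt (𝓡∂ n) q).source) :
    (mat (cc (𝓡∂ n) p x)).det =
      (mat (cc (𝓡∂ n) q x)).det * (mat (tangentCoordChange (𝓡∂ n) p q x)).det := by
  rw [← Matrix.det_mul, mat_mul]
  congr 2
  ext1 v
  show cc (𝓡∂ n) p x v = cc (𝓡∂ n) q x (tangentCoordChange (𝓡∂ n) p q x v)
  unfold cc
  rw [tangentCoordChange_comp ⟨⟨hp, hq⟩, mem_extChartAt_source x⟩]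

theorem dens_change (g : Metric (𝓡∂ n) M) {p q x : M} (hp : x ∈ (extChartAt (𝓡∂ n) p).source)
    (hq : x ∈ (extChartAt (𝓡∂ n) q).source) :
    √(gram g p x).det = |(tangentCoordChange (𝓡∂ n) p q x).det| * √(gram g q x).det := by
  rw [det_gram g p x, det_gram g q x, mat_cc hp hq, det_mat, mul_pow, mul_assoc, mul_comm (_ ^ 2),
    mul_assoc, mul_comm (Matrix.det _) (_ ^ 2)]
  rw [Real.sqrt_mul (sq_nonneg _), Real.sqrt_sq_eq_abs]

/-- the measure of the chart at `p` -/
def nu [MeasurableSpace M] (g : Metric (𝓡∂ n) M) (p : M) : Measure M :=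
  ((volume.restrict (extChartAt (𝓡∂ n) p).target).withDensity
        (fun y => ENNReal.ofReal (dens g p y))).map (extChartAt (𝓡∂ n) p).symm

variable [MeasurableSpace M] [BorelSpace M]

theorem nu_apply (g : Metric (𝓡∂ n) M) (p : M) {s : Set M} (hs : MeasurableSet s)
    (hsub : s ⊆ (extChartAt (𝓡∂ n) p).source) :
    nu g p s = ∫⁻ y in (extChartAt (𝓡∂ n) p) '' s, ENNReal.ofReal (dens g p y) := by
  have hsymm : AEMeasurable (extChartAt (𝓡∂ n) p).symm
      (volume.restrict (extChartAt (𝓡∂ n) p).target) :=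
    (continuousOn_extChartAt_symm p).aemeasurable (measurableSet_target p)
  unfold nu
  rw [Measure.map_apply_of_aemeasurable (hsymm.mono_ac (withDensity_absolutelyContinuous _ _)) hs]
  rw [image_eq_target_inter p hsub, withDensity_apply',
    Measure.restrict_restrict' (measurableSet_target p), inter_comm]

theorem nu_change (g : Metric (𝓡∂ n) M) (p q : M) {s : Set M} (hs : MeasurableSet s)
    (hp : s ⊆ (extChartAt (𝓡∂ n) p).source) (hq : s ⊆ (extChartAt (𝓡∂ n) q).source) :
    nu g p s = nu g q s := by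
  rw [nu_apply g p hs hp, nu_apply g q hs hq]
  set B := (extChartAt (𝓡∂ n) p) '' s with hB
  set T := (extChartAt (𝓡∂ n) q) ∘ (extChartAt (𝓡∂ n) p).symm with hT
  have hBm : MeasurableSet B := measurable_image hs hp
  have hTB : (extChartAt (𝓡∂ n) q) '' s = T '' B := by
    rw [hB, image_image]
    refine image_congr fun x hx => ?_
    rw [hT, Function.comp_apply, (extChartAt (𝓡∂ n) p).left_inv (hp hx)]
  have hder : ∀ y ∈ B, HasFDerivWithinAt T
      (tangentCoordChange (𝓡∂ n) p q ((extChartAt (𝓡∂ n) p).symm y)) B y := by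
    rintro _ ⟨x, hx, rfl⟩
    rw [(extChartAt (𝓡∂ n) p).left_inv (hp hx)]
    refine (hasFDerivWithinAt_tangentCoordChange (I := 𝓡∂ n) (x := p) (y := q) (z := x)
      ⟨hp hx, hq hx⟩).mono ?_
    rintro _ ⟨z, hz, rfl⟩
    rw [extChartAt_coe]
    exact mem_range_self _
  have hinj : InjOn T B := by
    rintro _ ⟨x, hx, rfl⟩ _ ⟨z, hz, rfl⟩ h
    simp only [hT, Function.comp_apply, (extChartAt (𝓡∂ n) p).left_inv (hp hx),
      (extChartAt (𝓡∂ n) p).left_inv (hp hz)] at h
    rw [(extChartAt (𝓡∂ n) q).injOn (hq hx) (hq hz) h]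
  rw [hTB, lintegral_image_eq_lintegral_abs_det_fderiv_mul volume hBm hder hinj]
  refine setLIntegral_congr_fun hBm ?_
  rintro _ ⟨x, hx, rfl⟩
  simp only [dens, hT, Function.comp_apply, (extChartAt (𝓡∂ n) p).left_inv (hp hx),
    (extChartAt (𝓡∂ n) q).left_inv (hq hx)]
  rw [dens_change g (hp hx) (hq hx), ENNReal.ofReal_mul (abs_nonneg _)]

/-- measurable sets in finitely many chart domains -/
theorem exists_vol_fin (g : Metric (𝓡∂ n) M) (t : Finset M) : ∃ μ : Measure M, ∀ (p : M) (s : Set M),
    MeasurableSet s → s ⊆ (extChartAt (𝓡∂ n) p).source →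
    s ⊆ ⋃ q ∈ t, (extChartAt (𝓡∂ n) q).source → μ s = nu g p s := by
  classical
  induction t using Finset.induction_on with
  | empty =>
    refine ⟨0, fun p s hs hp h0 => ?_⟩
    have : s = ∅ := by simpa using h0
    rw [this, measure_empty, measure_empty]
  | insert q t hq ih =>
    obtain ⟨μ, hμ⟩ := ih
    set U : Set M := ⋃ q ∈ t, (extChartAt (𝓡∂ n) q).source with hU
    have hUm : MeasurableSet U :=
      (isOpen_biUnion fun q _ => isOpen_extChartAt_source q).measurableSet
    refine ⟨μ.restrict U + (nu g q).restrict Uᶜ, fun p s hs hp h0 => ?_⟩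
    rw [Measure.add_apply, Measure.restrict_apply hs, Measure.restrict_apply hs,
      hμ p (s ∩ U) (hs.inter hUm) (inter_subset_left.trans hp) inter_subset_right]
    have h1 : s ∩ Uᶜ ⊆ (extChartAt (𝓡∂ n) q).source := by
      rintro x ⟨hx, hxU⟩
      have := h0 hx
      rw [Finset.set_biUnion_insert] at this
      rcases this with h | h
      · exact h
      · exact absurd h hxU
    rw [nu_change g q p (hs.inter hUm.compl) h1 (inter_subset_left.trans hp)]
    exact measure_inter_add_diff s hUm

theorem exists_cover (n : ℕ) [NeZero n] (M : Type u) [TopologicalSpace M]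
    [ChartedSpace (EuclideanHalfSpace n) M] [CompactSpace M] :
    ∃ t : Finset M, (univ : Set M) ⊆ ⋃ q ∈ t, (extChartAt (𝓡∂ n) q).source := by
  obtain ⟨t, ht⟩ := isCompact_univ.elim_finite_subcover
    (fun q : M => (extChartAt (𝓡∂ n) q).source) (fun q => isOpen_extChartAt_source q)
    (fun x _ => mem_iUnion.2 ⟨x, mem_extChartAt_source x⟩)
  exact ⟨t, ht⟩

/-- **The Riemannian volume exists.** -/
theorem exists_vol [CompactSpace M] (g : Metric (𝓡∂ n) M) :
    ∃ μ : Measure M, IsRiemannianVolume g μ := by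
  obtain ⟨t, ht⟩ := exists_cover n M
  obtain ⟨μ, hμ⟩ := exists_vol_fin g t
  refine ⟨μ, fun p s hs hp => ?_⟩
  rw [hμ p s hs hp ((subset_univ s).trans ht), nu_apply g p hs hp]
  rfl

/-- Measures which agree in the chart domains are equal. -/
theorem vol_unique [CompactSpace M] {μ ν : Measure M}
    (h : ∀ (p : M) (s : Set M), MeasurableSet s → s ⊆ src n p → μ s = ν s) : μ = ν := by
  classical
  obtain ⟨t, ht⟩ := exists_cover n M
  have key : ∀ (t : Finset M) (s : Set M), MeasurableSet s →
      s ⊆ (⋃ q ∈ t, (extChartAt (𝓡∂ n) q).source) → μ s = ν s := by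
    intro t
    induction t using Finset.induction_on with
    | empty =>
      intro s hs h0
      have : s = ∅ := by simpa using h0
      rw [this, measure_empty, measure_empty]
    | insert q t hq ih =>
      intro s hs h0
      set U : Set M := (extChartAt (𝓡∂ n) q).source with hU
      have hUm : MeasurableSet U := (isOpen_extChartAt_source q).measurableSet
      rw [← measure_inter_add_diff s hUm, ← measure_inter_add_diff (μ := ν) s hUm,
        h q (s ∩ U) (hs.inter hUm) (by rw [src_eq]; exact inter_subset_right),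
        ih (s \ U) (hs.diff hUm) ?_]
      rintro x ⟨hx, hxU⟩
      have := h0 hx
      rw [Finset.set_biUnion_insert] at this
      rcases this with h | h
      · exact absurd h hxU
      · exact h
  ext s hs
  exact key t s hs ((subset_univ s).trans ht)

/-! ### pairs -/

omit [MeasurableSpace M] [BorelSpace M] in
/-- the metric with given coefficients -/
def metOf (G : M → Matrix (Fin n) (Fin n) ℝ) (pos : ∀ x, (G x).PosDef)
    (smooth : ∀ p i j, SmOn n (src n p) (fun x => inChart n G p x i j)) : Metric (𝓡∂ n) M where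
  inner := fun x => bil (G x)
  symm := fun x v w => bil_symm (pos x) v w
  pos := fun x v hv => bil_pos (pos x) v hv
  smooth := fun p i j => by
    rw [← src_eq]
    have h1 := smooth p i j
    have h2 : ContMDiffOn (𝓡∂ n) 𝓘(ℝ, ℝ) ∞ (fun x => ((inChart n G p x i j : ℝ) : ℂ).re)
        (src n p) :=
      Complex.reCLM.contDiff.contMDiff.comp_contMDiffOn h1
    refine h2.congr fun x hx => ?_
    rw [Complex.ofReal_re]
    exact bil_cc hx i j

omit [MeasurableSpace M] [BorelSpace M] in
theorem gram_metOf {G : M → Matrix (Fin n) (Fin n) ℝ} {pos : ∀ x, (G x).PosDef}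
    {smooth : ∀ p i j, SmOn n (src n p) (fun x => inChart n G p x i j)} {p x : M}
    (hx : x ∈ src n p) : gram (metOf G pos smooth) p x = inChart n G p x := by
  ext i j
  exact bil_cc hx i j

end Vale.Agent.P088.R2.H31.DM

namespace Vale.Agent.P088.R2.H31.DM

open Vale.Agent.P088

universe u

variable {n N : ℕ} [NeZero n] {M : Type u} [TopologicalSpace M]
  [ChartedSpace (EuclideanHalfSpace n) M] [IsManifold (𝓡∂ n) ∞ M]

/-- **Every smooth metric and unitary connection is a pair**, with exactly one volume. -/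
theorem exists_pair [CompactSpace M] {g : M → Matrix (Fin n) (Fin n) ℝ}
    {A : M → Fin n → Matrix (Fin N) (Fin N) ℂ} (h : B.IsSmooth (B.at_ n M) g A) :
    ∃! P : B.Pair (B.at_ n M) N, P.g = g ∧ P.A = A := by
  let _ : MeasurableSpace M := borel M
  have _ : BorelSpace M := ⟨rfl⟩
  have smooth : ∀ p i j, S.SmOn n (S.src n p) (fun x => S.inChart n g p x i j) := fun p i j => by
    have h := (h.2 p i j).1
    change S.SmOn n (S.src n p) _ at h
    refine ContMDiffOn.congr h fun x hx => ?_
    rw [B.at_gch, B.at_ch, B.at_pt_ch hx]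
  obtain ⟨μ, hμ⟩ := exists_vol (metOf g (fun x => (h.1 x).1) smooth)
  have isVol : ∀ p s, MeasurableSet[borel M] s → s ⊆ (B.at_ n M).src p →
      μ s = ∫⁻ y, ((B.at_ n M).ch p '' s).indicator
        (fun y => ENNReal.ofReal √(B.gch (B.at_ n M) g p y).det) y := by
    intro p s hs hsub
    have hsub1 : s ⊆ S.src n p := hsub
    have hsub2 : s ⊆ (extChartAt (𝓡∂ n) p).source := by rw [← S.src_eq]; exact hsub1
    rw [hμ p s hs hsub2]
    refine Eq.trans ?_ (lintegral_indicator (B.at_meas p s hs hsub1) _).symm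
    simp only [B.at_gch]
    have himg : S.ch n p '' s = (fun y : EuclideanSpace ℝ (Fin n) => WithLp.ofLp y) ''
        ((extChartAt (𝓡∂ n) p) '' s) := by
      rw [image_image]
      rfl
    rw [himg, ← (PiLp.volume_preserving_ofLp (Fin n)).setLIntegral_comp_emb
      (MeasurableEquiv.toLp 2 (Fin n → ℝ)).symm.measurableEmbedding]
    refine setLIntegral_congr_fun (S.measurable_image hs hsub2) ?_
    rintro _ ⟨x, hx, rfl⟩
    have hxs := hsub2 hx
    simp only
    rw [S.pt_eq ((extChartAt (𝓡∂ n) p).map_source hxs), (extChartAt (𝓡∂ n) p).left_inv hxs,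
      gram_metOf (hsub1 hx)]
  refine ⟨⟨g, A, h.1, h.2, μ, isVol⟩, ⟨rfl, rfl⟩, ?_⟩
  rintro ⟨g', A', pos', smo', vol', isVol'⟩ ⟨rfl, rfl⟩
  have e : vol' = μ := by
    refine @vol_unique n _ M _ _ _ (borel M) ⟨rfl⟩ _ vol' μ fun p s hs hsub => ?_
    exact (isVol' p s hs hsub).trans (isVol p s hs hsub).symm
  subst e
  rfl

end Vale.Agent.P088.R2.H31.DM
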