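import Vale.Agent.P088.R2.H31.DM.Top
import Vale.Agent.P088.R2.H31.DM.Vol
import Vale.Agent.P088.R2.H238.DM.Spec

/-!
# P088, SOLV: the manifold form from the target of the rows
-/

set_option autoImplicit false

open Manifold

namespace Vale.Agent.P088.R2.H31.DM

universe u

theorem solvM_of (h : Vale.Agent.P088.DM.SOLV.{u}) : SolvM.{u} := by
  intro n N _ M _ _ _ _ _ _ _ _ P _ hb f hf
  exact h n N M P hb f hf

end Vale.Agent.P088.R2.H31.DM
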