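import Vale.Agent.P088.R2.H31.DM.Top

/-!
# P088, SOLV, row 1: the minimizing sequence (smooth sections), Cauchy in energy and in L2
-/

set_option autoImplicit false
set_option linter.all false

open Bundle Manifold MeasureTheory Set Filter
open scoped ContDiff Topology

noncomputable section

namespace Vale.Agent.P088.R2.H31.DM

open Vale.Agent.P088 (Fib)
open Vale.Agent.P088.EYM

universe u

variable {n N : ℕ} [NeZero n] {M : Type u} [TopologicalSpace M]
  [ChartedSpace (EuclideanHalfSpace n) M] [IsManifold (𝓡∂ n) ∞ M] [T2Space M] [CompactSpace M]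
  [MeasurableSpace M] [BorelSpace M]

theorem form_M : CForm_statement.{u} := cForm cInt

theorem poinc_M : CPoinc_statement.{u} := by
  have aP : APoincare_statement := aPoincare aHardy
  have cI : CInt_statement.{u} := cInt
  exact cPoinc aP cLoc (cEnergy cI) cI

/-- The sequence: `v k` smooth, zero on the boundary; `f + v k` minimizes the energy. -/
structure WSeq (P : One n N M) (f : M → Fib N) (v : ℕ → M → Fib N) : Prop where
  sm : ∀ k, SmS n (v k)
  bd : ∀ k, ∀ x ∈ (𝓡∂ n).boundary M, v k x = 0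
  cE : ∀ ε > 0, ∃ k₀, ∀ k ≥ k₀, ∀ j ≥ k₀, (P.E (v k - v j) (v k - v j)).re ≤ ε
  cL : ∀ ε > 0, ∃ k₀, ∀ k ≥ k₀, ∀ j ≥ k₀, ∫ x, ‖v k x - v j x‖ ^ 2 ∂P.μ ≤ ε
  weak : ∀ φ : M → Fib N, SmS n φ → (∀ x ∈ (𝓡∂ n).boundary M, φ x = 0) →
    Tendsto (fun k => P.E (f + v k) φ) atTop (𝓝 0)

theorem wseq [ConnectedSpace M] (P : One n N M) (hb : ((𝓡∂ n).boundary M).Nonempty)
    {f : M → Fib N} (hf : SmS n f) : ∃ v, WSeq P f v := by
  obtain ⟨f1, f2, f3, f4, f5⟩ := form_M n N M P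
  obtain ⟨C, hC, hCp⟩ := poinc_M n N M P hb
  let X := crungeaX n N M
  let l : X →ₗ[ℂ] ℂ :=
    { toFun := fun φ => -P.E f (φ : M → Fib N)
      map_add' := fun φ ψ => by
        rw [Submodule.coe_add, f1 _ _ _ hf φ.2.1 ψ.2.1, neg_add]
      map_smul' := fun a φ => by
        rw [RingHom.id_apply, smul_eq_mul, Submodule.coe_smul, f2 a _ _ hf φ.2.1]
        ring }
  have hl : ∀ φ : X, l φ = -P.E f (φ : M → Fib N) := fun _ => rfl
  obtain ⟨w, hw1, hw2⟩ := cHilb X (fun u v => P.E (u : M → Fib N) (v : M → Fib N)) l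
    (P.E f f).re (fun u v w => f1 _ _ _ u.2.1 v.2.1 w.2.1)
    (fun a u v => f2 a _ _ u.2.1 v.2.1) (fun u v => f3 _ _ u.2.1 v.2.1) (fun u => f4 _ u.2.1)
    (fun u => by
      rw [hl, norm_neg]
      exact f5 _ _ hf u.2.1)
  refine ⟨fun k => (w k : M → Fib N), fun k => (w k).2.1, fun k => (w k).2.2, ?_, ?_, ?_⟩
  · intro ε hε
    obtain ⟨k₀, hk₀⟩ := hw1 ε hε
    exact ⟨k₀, fun k hk j hj => hk₀ k hk j hj⟩
  · intro ε hε
    obtain ⟨k₀, hk₀⟩ := hw1 (ε / C) (by (clear * - hε hC; positivity))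
    refine ⟨k₀, fun k hk j hj => ?_⟩
    have h1 := hk₀ k hk j hj
    have h2 := hCp _ (w k - w j).2.1 (w k - w j).2.2
    have h3 : C * (P.E ((w k - w j : X) : M → Fib N) ((w k - w j : X) : M → Fib N)).re ≤ ε := by
      calc _ ≤ C * (ε / C) := mul_le_mul_of_nonneg_left h1 hC.le
        _ = ε := by (clear * - hC hε; field_simp)
    exact h2.trans h3
  · intro φ hφ hb'
    have h4 := hw2 ⟨φ, hφ, hb'⟩
    rw [hl] at h4
    have h5 : ∀ k, P.E (f + (w k : M → Fib N)) φ = P.E f φ + P.E (w k : M → Fib N) φ := by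
      intro k
      have hs : SmS n (f + (w k : M → Fib N)) := crungea_add hf (w k).2.1
      rw [f3 φ _ hφ hs, f1 _ _ _ hφ hf (w k).2.1, map_add, ← f3 φ _ hφ hf,
        ← f3 φ _ hφ (w k).2.1]
    have h6 := h4.const_add (P.E f φ)
    rw [add_neg_cancel] at h6
    exact h6.congr fun k => (h5 k).symm

end Vale.Agent.P088.R2.H31.DM
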