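import Vale.Agent.P088.R2.H31.DM.Fin
import Vale.Agent.P088.R2.H238.DM.Solv2
import Vale.Agent.P088.R2.H558.DM.Eq1

/-!
# P088: the Dirichlet problem has a solution which is smooth up to the boundary
-/

set_option autoImplicit false

namespace Vale.Agent.P088.R2.H31.DM

universe u

/-- **The Dirichlet problem has a smooth solution.** -/
theorem solvM : SolvM.{u} :=
  solvM_of (Vale.Agent.P088.DM.solv_eq1 fun n _ => Vale.Agent.P088.R2.H558.DM.eq1 n)

end Vale.Agent.P088.R2.H31.DM
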