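import Vale.Agent.P088.Bdl.B12
import Vale.Agent.P088.Bdl.B10

/-!
# P088, SOLV: interface between the manifold form of the solvability theorem and pairs

* `SolvM`: the solvability of the Dirichlet problem, the target of the rows;
* `solv_pair`: the same for pairs (statement of the hand-in);
* `same_of_forms`: the data in the form without existence.
-/

set_option autoImplicit false
set_option linter.all false

open Bundle Manifold MeasureTheory Set Filter
open scoped ContDiff Matrix Topology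

noncomputable section

namespace Vale.Agent.P088.R2.H31.DM

open Vale.Agent.P088 (IsHarmonicExt Fib)
open Vale.Agent.P088.EYM (One SmS CUniq_statement CPoinc_statement CForm_statement CInt_statement)

universe u

/-- **SOLV**: the Dirichlet problem is solvable, with a solution smooth up to the boundary. -/
def SolvM : Prop :=
  ∀ (n N : ℕ) [NeZero n] (M : Type u) [TopologicalSpace M] [ChartedSpace (EuclideanHalfSpace n) M]
    [IsManifold (𝓡∂ n) ∞ M] [T2Space M] [CompactSpace M] [ConnectedSpace M] [MeasurableSpace M]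
    [BorelSpace M] (P : One n N M), 2 ≤ n → ((𝓡∂ n).boundary M).Nonempty →
      ∀ f : M → Fib N, SmS n f → ∃ u, P.Harm f u

variable {n N : ℕ} [NeZero n] {M : Type u} [TopologicalSpace M]
  [ChartedSpace (EuclideanHalfSpace n) M] [IsManifold (𝓡∂ n) ∞ M]

/-- the pair in the invariant form -/
def oneOf (P : B.Pair (B.at_ n M) N) : @One n N _ M _ _ _ (borel M) :=
  let _ : MeasurableSpace M := borel M
  ⟨S.gOf (B.conv P), P.vol, S.connOf (B.conv P), S.isVol_gOf (B.conv P)⟩

theorem harm_iff {P : B.Pair (B.at_ n M) N} {f u : M → Fin N → ℂ} :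
    B.Harm P f u ↔ @One.Harm n N _ M _ _ _ (borel M) (oneOf P) (S.toF f) (S.toF u) := by
  constructor
  · intro h
    exact (S.harm_iff (B.conv P) f u).1 (B.harm_conv h)
  · intro h
    obtain ⟨h1, h2, h3⟩ := (S.harm_iff (B.conv P) f u).2 h
    refine ⟨h1, ?_, fun φ hφ hb => ?_⟩
    · rw [B.bd_at]
      exact h2
    · rw [B.bd_at] at hb
      rw [B.energy_conv]
      exact h3 φ hφ fun x hx => funext fun a => hb x hx a

theorem energy_one {P : B.Pair (B.at_ n M) N} {u v : M → Fin N → ℂ} (hu : B.Sm (B.at_ n M) u)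
    (hv : B.Sm (B.at_ n M) v) : B.energy P u v =
      @One.E n N _ M _ _ _ (borel M) (oneOf P) (S.toF u) (S.toF v) := by
  rw [B.energy_conv]
  exact S.energy_toF (B.conv P) hu hv

theorem uniq_M : CUniq_statement.{u} := by
  have aP : EYM.APoincare_statement := EYM.aPoincare EYM.aHardy
  have loc : EYM.CLoc_statement.{u} := EYM.cLoc
  have cI : EYM.CInt_statement.{u} := EYM.cInt
  have en : EYM.CEnergy_statement.{u} := EYM.cEnergy cI
  exact EYM.cUniq (EYM.cPoinc aP loc en cI) (EYM.cForm cI) cI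

omit [IsManifold (𝓡∂ n) ∞ M] in
theorem toF_inj {u v : M → Fin N → ℂ} (h : S.toF u = S.toF v) : u = v := by
  funext x
  exact WithLp.toLp_injective 2 (congrFun h x)

omit [IsManifold (𝓡∂ n) ∞ M] in
theorem toF_ofLp (u : M → Fib N) : S.toF (fun x a => u x a) = u := rfl

variable [T2Space M] [CompactSpace M] [ConnectedSpace M]

/-- uniqueness for pairs -/
theorem uniq_pair (P : B.Pair (B.at_ n M) N) (hb : (B.bd (B.at_ n M)).Nonempty)
    {f u u' : M → Fin N → ℂ} (h : B.Harm P f u) (h' : B.Harm P f u') : u = u' := by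
  let _ : MeasurableSpace M := borel M
  have _ : BorelSpace M := ⟨rfl⟩
  rw [B.bd_at] at hb
  exact toF_inj ((uniq_M n N M (oneOf P) hb).1 _ _ _ _ (harm_iff.1 h) (harm_iff.1 h')
    fun _ _ => rfl)

/-- **SOLV for pairs** -/
theorem solv_pair (hS : SolvM.{u}) (hn : 2 ≤ n) (P : B.Pair (B.at_ n M) N)
    (hb : (B.bd (B.at_ n M)).Nonempty) {f : M → Fin N → ℂ} (hf : B.Sm (B.at_ n M) f) :
    ∃! u, B.Harm P f u := by
  let _ : MeasurableSpace M := borel M
  have _ : BorelSpace M := ⟨rfl⟩
  have hb' := hb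
  rw [B.bd_at] at hb'
  obtain ⟨u, hu⟩ := hS n N M (oneOf P) hn hb' (S.toF f) ((S.sm_iff f).1 hf)
  have h1 : B.Harm P f (fun x a => u x a) := harm_iff.2 hu
  exact ⟨_, h1, fun v hv => uniq_pair P hb hv h1⟩

variable (n M) in
/-- The data of `(g₁, A₁)` and `(g₂, A₂)` on `Γ` are the same form. -/
def SameForm (Γ : Set M) (P Q : B.Pair (B.at_ n M) N) : Prop :=
  ∀ f h, B.Data (B.at_ n M) Γ f → B.Data (B.at_ n M) Γ h → ∀ u v u' v', B.Harm P f u →
    B.Harm P h v → B.Harm Q f u' → B.Harm Q h v' → B.energy P u v = B.energy Q u' v'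

theorem sameData_of (hS : SolvM.{u}) (hn : 2 ≤ n) {Γ : Set M} {P Q : B.Pair (B.at_ n M) N}
    (hb : (B.bd (B.at_ n M)).Nonempty) (h : SameForm n M Γ P Q) : B.SameData Γ P Q := by
  intro f k hf hk
  obtain ⟨u, hu, -⟩ := solv_pair hS hn P hb hf.1
  obtain ⟨v, hv, -⟩ := solv_pair hS hn P hb hk.1
  obtain ⟨u', hu', -⟩ := solv_pair hS hn Q hb hf.1
  obtain ⟨v', hv', -⟩ := solv_pair hS hn Q hb hk.1
  exact ⟨u, v, u', v', hu, hv, hu', hv', h f k hf hk u v u' v' hu hv hu' hv'⟩

end Vale.Agent.P088.R2.H31.DM
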